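import Vale.Agent.Lib.P038.SatK.Shapes.S3_2_0f
noncomputable section
namespace Vale.Agent.Lib.P038.SatK.I.P3_2
open Vale.Agent.Lib.P038.Sat Vale.Agent.Lib.P038.SatK
def W : Nat := 55
def M : Nat := 36028797018963967
def GT : Nat := 362156596101550252273330729503738933522969131316572044225343205442030029651282282609938531383282717606392010530744794594670463177104205424797673951650571034212678659486532692134502472953413265056865134647373769466917085419852407763326697464024799467667059931454495984914530603705408212882722027030779525130729406760224316222927600382889619240579275963616384070991970797021436915860286461555509251
def h0 : T := (T.l (nat_lit 0))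
def H : T := h0
theorem hlast : getB H 0 = 0 := by decide +kernel
end Vale.Agent.Lib.P038.SatK.I.P3_2
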